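import Mathlib

namespace Vale.Agent.Results.P045.A_DownClosed

/-- Sum of the alternating pattern `j, m - j, j, m - j, ...` over the first `r` indices. -/
lemma sum_alt (j m : ℕ) (r : ℕ) :
    ∑ i ∈ Finset.range r, (if i % 2 = 0 then j else m - j)
      = ((r + 1) / 2) * j + (r / 2) * (m - j) := by
  induction r with
  | zero => simp
  | succ n ih =>
    rw [Finset.sum_range_succ, ih]
    rcases Nat.mod_two_eq_zero_or_one n with h | h
    · have h1 : (n + 1 + 1) / 2 = n / 2 + 1 := by omega
      have h2 : (n + 1) / 2 = n / 2 := by omega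
      rw [if_pos h, h1, h2]; ring
    · have h1 : (n + 1 + 1) / 2 = n / 2 + 1 := by omega
      have h2 : (n + 1) / 2 = n / 2 + 1 := by omega
      rw [if_neg (by omega), h1, h2]; ring

/-- Ryser's inequality for down-closed `r`-partite `r`-uniform hypergraphs.

The vertices are the pairs `(i, v)` with `i : Fin r` (the part) and `v : ℕ`; an edge is a
function `x : Fin r → ℕ`, standing for the vertex set `{(i, x i)}`.  The finite edge set `S`
is assumed downward closed in the coordinatewise order.  Then there are a vertex cover `C`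
and a matching `M ⊆ S` with `|C| ≤ ⌈r/2⌉ |M|`, hence `|C| ≤ (r - 1) |M|`. -/
theorem result (r : ℕ) (hr : 2 ≤ r) (S : Finset (Fin r → ℕ))
    (hS : ∀ x ∈ S, ∀ y : Fin r → ℕ, (∀ i, y i ≤ x i) → y ∈ S) :
    ∃ (C : Finset (Fin r × ℕ)) (M : Finset (Fin r → ℕ)),
      (∀ x ∈ S, ∃ i, (i, x i) ∈ C) ∧
      M ⊆ S ∧
      (∀ x ∈ M, ∀ y ∈ M, x ≠ y → ∀ i, x i ≠ y i) ∧
      C.card ≤ ((r + 1) / 2) * M.card ∧
      C.card ≤ (r - 1) * M.card := by
  classical
  obtain ⟨M, hM, hmax⟩ := Finset.exists_max_image
    (S.powerset.filter (fun M => ∀ x ∈ M, ∀ y ∈ M, x ≠ y → ∀ i, x i ≠ y i)) Finset.card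
    ⟨∅, by simp⟩
  rw [Finset.mem_filter, Finset.mem_powerset] at hM
  obtain ⟨hMS, hMP⟩ := hM
  have hex : ∃ j, j ≤ M.card ∧
      (fun i : Fin r => if (i : ℕ) % 2 = 0 then j else M.card - j) ∉ S := by
    by_contra hcon
    push Not at hcon
    let p : ℕ → Fin r → ℕ := fun j i => if (i : ℕ) % 2 = 0 then j else M.card - j
    have hinj : ∀ j ≤ M.card, ∀ k ≤ M.card, j ≠ k → ∀ i, p j i ≠ p k i := by
      intro j hj k hk hjk i
      simp only [p]
      split_ifs <;> omega
    let N : Finset (Fin r → ℕ) := (Finset.range (M.card + 1)).image p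
    have hNS : N ⊆ S := by
      intro x hx
      obtain ⟨j, hj, rfl⟩ := Finset.mem_image.mp hx
      exact hcon j (by simpa [Nat.lt_succ_iff] using hj)
    have hNP : ∀ x ∈ N, ∀ y ∈ N, x ≠ y → ∀ i, x i ≠ y i := by
      intro x hx y hy hxy i
      obtain ⟨j, hj, rfl⟩ := Finset.mem_image.mp hx
      obtain ⟨k, hk, rfl⟩ := Finset.mem_image.mp hy
      have hjk : j ≠ k := fun h => hxy (by rw [h])
      exact hinj j (by simpa [Nat.lt_succ_iff] using hj) k
        (by simpa [Nat.lt_succ_iff] using hk) hjk i
    have hNcard : N.card = M.card + 1 := by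
      rw [Finset.card_image_of_injOn, Finset.card_range]
      intro j hj k hk hjk
      by_contra hne
      have h0 := hinj j (by simpa [Nat.lt_succ_iff] using hj) k
        (by simpa [Nat.lt_succ_iff] using hk) hne ⟨0, by omega⟩
      exact h0 (by rw [hjk])
    have hle := hmax N (by rw [Finset.mem_filter, Finset.mem_powerset]; exact ⟨hNS, hNP⟩)
    omega
  obtain ⟨j, hj, hjS⟩ := hex
  let q : Fin r → ℕ := fun i => if (i : ℕ) % 2 = 0 then j else M.card - j
  let C : Finset (Fin r × ℕ) :=
    (Finset.univ : Finset (Fin r)).biUnion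
      (fun i => (Finset.range (q i)).image (fun v => (i, v)))
  have hCcard : C.card ≤ ((r + 1) / 2) * M.card := by
    calc C.card ≤ ∑ i : Fin r, ((Finset.range (q i)).image (fun v => (i, v))).card :=
          Finset.card_biUnion_le
      _ ≤ ∑ i : Fin r, q i := Finset.sum_le_sum (fun i _ => by
            exact le_trans Finset.card_image_le (by rw [Finset.card_range]))
      _ = ∑ i ∈ Finset.range r, (if i % 2 = 0 then j else M.card - j) :=
            Fin.sum_univ_eq_sum_range (fun i => if i % 2 = 0 then j else M.card - j) r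
      _ = ((r + 1) / 2) * j + (r / 2) * (M.card - j) := sum_alt j M.card r
      _ ≤ ((r + 1) / 2) * j + ((r + 1) / 2) * (M.card - j) := by
            gcongr; omega
      _ = ((r + 1) / 2) * M.card := by
            rw [← Nat.mul_add]; congr 1; omega
  refine ⟨C, M, ?_, hMS, hMP, hCcard, ?_⟩
  · intro x hx
    by_contra hcov
    push Not at hcov
    apply hjS
    apply hS x hx
    intro i
    by_contra hlt
    push Not at hlt
    apply hcov i
    simp only [C, Finset.mem_biUnion, Finset.mem_image, Finset.mem_range, Finset.mem_univ,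
      true_and]
    exact ⟨i, x i, hlt, rfl⟩
  · calc C.card ≤ ((r + 1) / 2) * M.card := hCcard
      _ ≤ (r - 1) * M.card := by
          apply Nat.mul_le_mul_right; omega

end Vale.Agent.Results.P045.A_DownClosed
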