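import Mathlib

/-!
# P045 — Ryser's inequality for hypergraphs whose edges meet few other edges

A hypergraph is a finite family `E` of finite sets (edges).  A cover is a set of vertices meeting
every edge, a matching a subfamily of pairwise disjoint edges.

* If every edge is nonempty and meets at most `2 r - 4` other edges (`r ≥ 2`), there are a cover
  `C` and a matching `M` with `|C| ≤ (r - 1) |M|`; hence `τ ≤ (r - 1) ν`.
* In particular this holds for every `r`-partite `r`-uniform hypergraph of maximum vertex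
  degree at most `2`, for every `r ≥ 4`.

Proof: pair up intersecting edges as long as possible (`t` pairs): one common vertex per pair and
one vertex per unpaired edge give a cover of size `N - t`, and the `N - 2t` unpaired edges are
pairwise disjoint.  A greedy choice gives `N / (2 r - 3)` pairwise disjoint edges.  One of the two
matchings works.
-/

namespace Vale.Agent.Results.P045.B_SparseIntersections

variable {V : Type} [DecidableEq V]

/-- Pair up intersecting edges as long as possible. -/
private lemma pairing (n : ℕ) : ∀ (E : Finset (Finset V)), E.card = n →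
    (∀ e ∈ E, e.Nonempty) →
    ∃ (C : Finset V) (t : ℕ) (U : Finset (Finset V)),
      (∀ e ∈ E, (e ∩ C).Nonempty) ∧ C.card + t ≤ E.card ∧ U ⊆ E ∧
      (∀ a ∈ U, ∀ b ∈ U, a ≠ b → Disjoint a b) ∧ E.card ≤ U.card + 2 * t := by
  induction n using Nat.strong_induction_on with
  | _ n ih =>
    intro E hcard hne
    by_cases h : ∃ a ∈ E, ∃ b ∈ E, a ≠ b ∧ ¬ Disjoint a b
    · obtain ⟨a, ha, b, hb, hab, hnd⟩ := h
      obtain ⟨v, hva, hvb⟩ : ∃ v, v ∈ a ∧ v ∈ b := Finset.not_disjoint_iff.mp hnd
      have hbE : b ∈ E.erase a := Finset.mem_erase.mpr ⟨fun h => hab h.symm, hb⟩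
      have hc' : ((E.erase a).erase b).card + 2 = E.card := by
        rw [Finset.card_erase_of_mem hbE, Finset.card_erase_of_mem ha]
        have h1 : 0 < (E.erase a).card := Finset.card_pos.mpr ⟨b, hbE⟩
        rw [Finset.card_erase_of_mem ha] at h1
        omega
      have hsub : (E.erase a).erase b ⊆ E :=
        (Finset.erase_subset _ _).trans (Finset.erase_subset _ _)
      obtain ⟨C', t', U', hcov, hct, hU, hdisj, hbig⟩ :=
        ih ((E.erase a).erase b).card (by omega) ((E.erase a).erase b) rfl
          (fun e he => hne e (hsub he))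
      refine ⟨insert v C', t' + 1, U', ?_, ?_, hU.trans hsub, hdisj, by omega⟩
      · intro e he
        by_cases hea : e = a
        · exact ⟨v, Finset.mem_inter.mpr ⟨hea ▸ hva, Finset.mem_insert_self v C'⟩⟩
        by_cases heb : e = b
        · exact ⟨v, Finset.mem_inter.mpr ⟨heb ▸ hvb, Finset.mem_insert_self v C'⟩⟩
        have he' : e ∈ (E.erase a).erase b :=
          Finset.mem_erase.mpr ⟨heb, Finset.mem_erase.mpr ⟨hea, he⟩⟩
        obtain ⟨x, hx⟩ := hcov e he'
        rw [Finset.mem_inter] at hx
        exact ⟨x, Finset.mem_inter.mpr ⟨hx.1, Finset.mem_insert_of_mem hx.2⟩⟩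
      · have := Finset.card_insert_le v C'
        omega
    · have h' : ∀ a ∈ E, ∀ b ∈ E, a ≠ b → Disjoint a b := by
        intro a ha b hb hab
        by_contra hnd
        exact h ⟨a, ha, b, hb, hab, hnd⟩
      refine ⟨E.attach.image (fun e => (hne e.1 e.2).choose), 0, E, ?_, ?_,
        Finset.Subset.refl _, h', by omega⟩
      · intro e he
        refine ⟨(hne e he).choose, Finset.mem_inter.mpr ⟨(hne e he).choose_spec, ?_⟩⟩
        exact Finset.mem_image.mpr ⟨⟨e, he⟩, Finset.mem_attach _ _, rfl⟩
      · have := Finset.card_image_le (s := E.attach) (f := fun e => (hne e.1 e.2).choose)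
        rw [Finset.card_attach] at this
        omega

/-- Greedy family of pairwise disjoint edges. -/
private lemma greedy (D : ℕ) (n : ℕ) : ∀ (E : Finset (Finset V)), E.card = n →
    (∀ e ∈ E, e.Nonempty) →
    (∀ e ∈ E, (E.filter (fun e' => e' ≠ e ∧ ¬ Disjoint e e')).card ≤ D) →
    ∃ M : Finset (Finset V), M ⊆ E ∧ (∀ a ∈ M, ∀ b ∈ M, a ≠ b → Disjoint a b) ∧
      E.card ≤ (D + 1) * M.card := by
  induction n using Nat.strong_induction_on with
  | _ n ih =>
    intro E hcard hne hdeg
    rcases E.eq_empty_or_nonempty with rfl | ⟨e, he⟩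
    · exact ⟨∅, by simp, by simp, by simp⟩
    · have he' : e ∉ E.filter (fun e' => Disjoint e e') := by
        rw [Finset.mem_filter]
        rintro ⟨-, hd⟩
        have hemp : e = ∅ := by simpa [disjoint_self] using hd
        exact (hne e he).ne_empty hemp
      have hsub : E.filter (fun e' => Disjoint e e') ⊆ E := Finset.filter_subset _ _
      have hlt : (E.filter (fun e' => Disjoint e e')).card < E.card :=
        Finset.card_lt_card (Finset.ssubset_iff_subset_ne.mpr
          ⟨hsub, fun h => he' (by rw [h]; exact he)⟩)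
      have hdeg' : ∀ a ∈ E.filter (fun e' => Disjoint e e'),
          ((E.filter (fun e' => Disjoint e e')).filter
            (fun e' => e' ≠ a ∧ ¬ Disjoint a e')).card ≤ D := by
        intro a ha
        exact (Finset.card_le_card (Finset.filter_subset_filter _ hsub)).trans
          (hdeg a (hsub ha))
      obtain ⟨M', hM', hdisj, hbig⟩ :=
        ih (E.filter (fun e' => Disjoint e e')).card (by omega) _ rfl
          (fun a ha => hne a (hsub ha)) hdeg'
      refine ⟨insert e M', ?_, ?_, ?_⟩
      · exact Finset.insert_subset he (hM'.trans hsub)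
      · intro a ha b hb hab
        rw [Finset.mem_insert] at ha hb
        rcases ha with rfl | ha <;> rcases hb with rfl | hb
        · exact absurd rfl hab
        · exact (Finset.mem_filter.mp (hM' hb)).2
        · exact (Finset.mem_filter.mp (hM' ha)).2.symm
        · exact hdisj a ha b hb hab
      · have hcov : E ⊆ E.filter (fun e' => Disjoint e e') ∪
            insert e (E.filter (fun e' => e' ≠ e ∧ ¬ Disjoint e e')) := by
          intro x hx
          by_cases hxe : x = e
          · exact Finset.mem_union_right _ (hxe ▸ Finset.mem_insert_self _ _)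
          by_cases hd : Disjoint e x
          · exact Finset.mem_union_left _ (Finset.mem_filter.mpr ⟨hx, hd⟩)
          · exact Finset.mem_union_right _
              (Finset.mem_insert_of_mem (Finset.mem_filter.mpr ⟨hx, hxe, hd⟩))
        have h1 := Finset.card_le_card hcov
        have h2 := Finset.card_union_le (E.filter (fun e' => Disjoint e e'))
          (insert e (E.filter (fun e' => e' ≠ e ∧ ¬ Disjoint e e')))
        have h3 := Finset.card_insert_le e (E.filter (fun e' => e' ≠ e ∧ ¬ Disjoint e e'))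
        have h4 := hdeg e he
        have h5 : (insert e M').card = M'.card + 1 :=
          Finset.card_insert_of_notMem (fun h => he' (hM' h))
        rw [h5]
        nlinarith

/-- Ryser's inequality when every edge meets at most `2 r - 4` other edges. -/
theorem sparse (r : ℕ) (hr : 2 ≤ r) (E : Finset (Finset V))
    (hne : ∀ e ∈ E, e.Nonempty)
    (hdeg : ∀ e ∈ E, (E.filter (fun e' => e' ≠ e ∧ ¬ Disjoint e e')).card ≤ 2 * r - 4) :
    ∃ (C : Finset V) (M : Finset (Finset V)),
      (∀ e ∈ E, (e ∩ C).Nonempty) ∧ M ⊆ E ∧ (∀ a ∈ M, ∀ b ∈ M, a ≠ b → Disjoint a b) ∧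
      C.card ≤ (r - 1) * M.card := by
  obtain ⟨C, t, U, hcov, hct, hU, hUd, hbig⟩ := pairing E.card E rfl hne
  obtain ⟨M, hM, hMd, hMbig⟩ := greedy (2 * r - 4) E.card E rfl hne hdeg
  by_cases h : C.card ≤ (r - 1) * U.card
  · exact ⟨C, U, hcov, hU, hUd, h⟩
  · refine ⟨C, M, hcov, hM, hMd, ?_⟩
    obtain ⟨s, rfl⟩ : ∃ s, r = s + 2 := ⟨r - 2, by omega⟩
    have e1 : 2 * (s + 2) - 4 + 1 = 2 * s + 1 := by omega
    have e2 : s + 2 - 1 = s + 1 := by omega
    rw [e1] at hMbig
    rw [e2] at h ⊢
    by_contra hcon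
    have H1 : (s + 1) * U.card + 1 ≤ C.card := by omega
    have H2 : (s + 1) * M.card + 1 ≤ C.card := by omega
    have P1 : (s + 1) * E.card ≤ (s + 1) * (U.card + 2 * t) := Nat.mul_le_mul_left _ hbig
    have P2 : (2 * s + 1) * (C.card + t) ≤ (2 * s + 1) * E.card := Nat.mul_le_mul_left _ hct
    have P3 : (2 * s + 1) * ((s + 1) * M.card + 1) ≤ (2 * s + 1) * C.card :=
      Nat.mul_le_mul_left _ H2
    have P4 : (s + 1) * E.card ≤ (s + 1) * ((2 * s + 1) * M.card) :=
      Nat.mul_le_mul_left _ hMbig
    nlinarith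

/-- The case of `r`-partite `r`-uniform hypergraphs of maximum degree at most two. -/
theorem degreeTwo (r : ℕ) (hr : 4 ≤ r) (part : V → Fin r) (E : Finset (Finset V))
    (hpart : ∀ e ∈ E, ∀ i : Fin r, ∃! v, v ∈ e ∧ part v = i)
    (hdeg2 : ∀ v : V, (E.filter (fun e => v ∈ e)).card ≤ 2) :
    ∃ (C : Finset V) (M : Finset (Finset V)),
      (∀ e ∈ E, (e ∩ C).Nonempty) ∧ M ⊆ E ∧ (∀ a ∈ M, ∀ b ∈ M, a ≠ b → Disjoint a b) ∧
      C.card ≤ (r - 1) * M.card := by
  apply sparse r (by omega) E
  · intro e he
    obtain ⟨v, hv, -⟩ := hpart e he ⟨0, by omega⟩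
    exact ⟨v, hv.1⟩
  · intro e he
    have hcard : e.card ≤ r := by
      have h0 : e.card ≤ (Finset.univ : Finset (Fin r)).card := by
        apply Finset.card_le_card_of_injOn part (fun v _ => Finset.mem_univ _)
        intro v hv w hw hvw
        obtain ⟨u, -, huniq⟩ := hpart e he (part v)
        exact (huniq v ⟨hv, rfl⟩).trans (huniq w ⟨hw, hvw.symm⟩).symm
      simpa using h0
    have hsub : E.filter (fun e' => e' ≠ e ∧ ¬ Disjoint e e') ⊆
        e.biUnion (fun v => (E.filter (fun e' => v ∈ e')).erase e) := by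
      intro e' he'
      rw [Finset.mem_filter] at he'
      obtain ⟨he'E, hne', hnd⟩ := he'
      obtain ⟨v, hve, hve'⟩ := Finset.not_disjoint_iff.mp hnd
      rw [Finset.mem_biUnion]
      exact ⟨v, hve, Finset.mem_erase.mpr ⟨hne', Finset.mem_filter.mpr ⟨he'E, hve'⟩⟩⟩
    have h1 : ∀ v ∈ e, ((E.filter (fun e' => v ∈ e')).erase e).card ≤ 1 := by
      intro v hv
      have hmem : e ∈ E.filter (fun e' => v ∈ e') := Finset.mem_filter.mpr ⟨he, hv⟩
      rw [Finset.card_erase_of_mem hmem]
      have := hdeg2 v
      omega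
    calc (E.filter (fun e' => e' ≠ e ∧ ¬ Disjoint e e')).card
        ≤ (e.biUnion (fun v => (E.filter (fun e' => v ∈ e')).erase e)).card :=
          Finset.card_le_card hsub
      _ ≤ ∑ v ∈ e, ((E.filter (fun e' => v ∈ e')).erase e).card := Finset.card_biUnion_le
      _ ≤ ∑ v ∈ e, 1 := Finset.sum_le_sum h1
      _ = e.card := by simp
      _ ≤ r := hcard
      _ ≤ 2 * r - 4 := by omega

/-- **Result.** A hypergraph is a finite family `E` of finite vertex sets.  A cover is a vertex
set `C` meeting every edge; a matching is a subfamily `M ⊆ E` of pairwise disjoint edges.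

1. Let `r ≥ 2`.  If all edges are nonempty and every edge meets at most `2 r - 4` other edges,
   then there are a cover `C` and a matching `M` with `|C| ≤ (r - 1) |M|`.
2. Let `r ≥ 4`.  If `E` is `r`-partite `r`-uniform (every edge contains exactly one vertex of each
   of the `r` parts given by `part`) and every vertex lies in at most two edges, then there are a
   cover `C` and a matching `M` with `|C| ≤ (r - 1) |M|`. -/
theorem result :
    (∀ (V : Type) [DecidableEq V] (r : ℕ), 2 ≤ r → ∀ (E : Finset (Finset V)),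
      (∀ e ∈ E, e.Nonempty) →
      (∀ e ∈ E, (E.filter (fun e' => e' ≠ e ∧ ¬ Disjoint e e')).card ≤ 2 * r - 4) →
      ∃ (C : Finset V) (M : Finset (Finset V)),
        (∀ e ∈ E, (e ∩ C).Nonempty) ∧ M ⊆ E ∧
        (∀ a ∈ M, ∀ b ∈ M, a ≠ b → Disjoint a b) ∧
        C.card ≤ (r - 1) * M.card) ∧
    (∀ (V : Type) [DecidableEq V] (r : ℕ), 4 ≤ r → ∀ (part : V → Fin r)
      (E : Finset (Finset V)),
      (∀ e ∈ E, ∀ i : Fin r, ∃! v, v ∈ e ∧ part v = i) →
      (∀ v : V, (E.filter (fun e => v ∈ e)).card ≤ 2) →
      ∃ (C : Finset V) (M : Finset (Finset V)),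
        (∀ e ∈ E, (e ∩ C).Nonempty) ∧ M ⊆ E ∧
        (∀ a ∈ M, ∀ b ∈ M, a ≠ b → Disjoint a b) ∧
        C.card ≤ (r - 1) * M.card) :=
  ⟨fun _ _ r hr E hne hdeg => sparse r hr E hne hdeg,
    fun _ _ r hr part E hpart hdeg2 => degreeTwo r hr part E hpart hdeg2⟩

end Vale.Agent.Results.P045.B_SparseIntersections
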