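import Mathlib

namespace Vale.Agent.Results.P045.C_MeetClosedIntersecting

/-- Ryser's bound in the intersecting case for meet-closed `r`-partite `r`-uniform hypergraphs.

The vertices are the pairs `(i, v)` with `i : Fin r` (the part) and `v : ℕ`; an edge is a
function `x : Fin r → ℕ`, standing for the vertex set `{(i, x i)}`.  The finite edge set `S`
is assumed closed under the coordinatewise minimum, and intersecting (any two edges share a
vertex, that is, agree in some coordinate).  Then `S` has a vertex cover with at most `r - 1`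
vertices. -/
theorem result (r : ℕ) (hr : 2 ≤ r) (S : Finset (Fin r → ℕ))
    (hmeet : ∀ x ∈ S, ∀ y ∈ S, (fun i => min (x i) (y i)) ∈ S)
    (hint : ∀ x ∈ S, ∀ y ∈ S, ∃ i, x i = y i) :
    ∃ C : Finset (Fin r × ℕ), C.card ≤ r - 1 ∧ ∀ x ∈ S, ∃ i, (i, x i) ∈ C := by
  classical
  rcases S.eq_empty_or_nonempty with hS | hS
  · exact ⟨∅, by simp, by simp [hS]⟩
  -- the least edge
  obtain ⟨a, haS, hamin⟩ := Finset.exists_min_image S (fun x => ∑ i, x i) hS
  have hbot : ∀ x ∈ S, ∀ i, a i ≤ x i := by
    intro x hx
    have hm := hamin _ (hmeet a haS x hx)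
    by_contra hcon
    push Not at hcon
    obtain ⟨i0, hi0⟩ := hcon
    have hlt : ∑ i, min (a i) (x i) < ∑ i, a i := by
      apply Finset.sum_lt_sum
      · intro i _
        exact min_le_left _ _
      · exact ⟨i0, Finset.mem_univ _, by rw [min_eq_right hi0.le]; exact hi0⟩
    omega
  -- some r - 1 vertices of the least edge cover
  have hex : ∃ j : Fin r, ∀ x ∈ S, ∃ i, i ≠ j ∧ x i = a i := by
    by_contra hcon
    push Not at hcon
    -- for every j an edge meeting the least edge only in coordinate j
    have hwit : ∀ j : Fin r, ∃ x ∈ S, x j = a j ∧ ∀ i, i ≠ j → a i < x i := by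
      intro j
      obtain ⟨x, hx, hxj⟩ := hcon j
      obtain ⟨i, hi⟩ := hint x hx a haS
      have hij : i = j := by
        by_contra hne
        exact hxj i hne hi
      refine ⟨x, hx, hij ▸ hi, ?_⟩
      intro i' hi'
      exact lt_of_le_of_ne (hbot x hx i') (fun h => hxj i' hi' h.symm)
    let j0 : Fin r := ⟨0, by omega⟩
    let j1 : Fin r := ⟨1, by omega⟩
    have hj01 : j1 ≠ j0 := by
      intro h
      have := congrArg Fin.val h
      simp [j0, j1] at this
    -- an edge agreeing with the least edge on a prescribed set of coordinates other than j0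
    have hbuild : ∀ J : Finset (Fin r), j0 ∉ J →
        ∃ z ∈ S, (∀ i ∈ J, z i = a i) ∧ a j0 < z j0 := by
      intro J
      induction J using Finset.induction_on with
      | empty =>
        intro _
        obtain ⟨x, hx, _, hx2⟩ := hwit j1
        exact ⟨x, hx, by simp, hx2 j0 hj01.symm⟩
      | insert j J hjJ ih =>
        intro hnot
        have hj0J : j0 ∉ J := fun h => hnot (Finset.mem_insert_of_mem h)
        have hjj0 : j ≠ j0 := fun h => hnot (h ▸ Finset.mem_insert_self j J)
        obtain ⟨z, hz, hzJ, hz0⟩ := ih hj0J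
        obtain ⟨x, hx, hxj, hx2⟩ := hwit j
        refine ⟨fun i => min (z i) (x i), hmeet z hz x hx, ?_, ?_⟩
        · intro i hi
          rcases Finset.mem_insert.mp hi with h | h
          · subst h
            show min (z i) (x i) = a i
            rw [hxj]
            exact min_eq_right (hbot z hz i)
          · show min (z i) (x i) = a i
            rw [hzJ i h]
            exact min_eq_left (hbot x hx i)
        · show a j0 < min (z j0) (x j0)
          exact lt_min hz0 (hx2 j0 hjj0.symm)
    obtain ⟨z, hz, hzJ, hz0⟩ := hbuild (Finset.univ.erase j0) (by simp)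
    obtain ⟨y, hy, hy0, hy2⟩ := hwit j0
    obtain ⟨i, hi⟩ := hint y hy z hz
    by_cases hi0 : i = j0
    · subst hi0
      omega
    · have h1 := hzJ i (by simp [hi0])
      have h2 := hy2 i hi0
      omega
  obtain ⟨j, hj⟩ := hex
  refine ⟨(Finset.univ.erase j).image (fun i => (i, a i)), ?_, ?_⟩
  · calc ((Finset.univ.erase j).image (fun i => (i, a i))).card
        ≤ (Finset.univ.erase j).card := Finset.card_image_le
      _ = r - 1 := by
          rw [Finset.card_erase_of_mem (Finset.mem_univ j), Finset.card_univ, Fintype.card_fin]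
  · intro x hx
    obtain ⟨i, hij, hi⟩ := hj x hx
    refine ⟨i, ?_⟩
    rw [Finset.mem_image]
    exact ⟨i, by simp [hij], by rw [hi]⟩

end Vale.Agent.Results.P045.C_MeetClosedIntersecting
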